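import Vale.Agent.P372.Main

namespace Vale.Agent.Results.P372.BoundKey

open Vale.Agent.P372

theorem result : ∃ ρ : Matrix (Fin 6 × Fin 10) (Fin 6 × Fin 10) ℂ,
    IsState ρ ∧ ¬ Separable ρ ∧
    (∃ (d : ℕ) (ψ : (Fin 6 × Fin 10) × Fin d → ℂ), Purifies ψ ρ) ∧
    ∀ (d : ℕ) (ψ : (Fin 6 × Fin 10) × Fin d → ℂ), Purifies ψ ρ → keyRate ψ = 0 := by
  obtain ⟨ρ, h1, h2, h3⟩ := main
  exact ⟨ρ, h1, h2, exists_purification h1.1, fun _ _ h => keyRate_zero h3 h1.2 h⟩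

end Vale.Agent.Results.P372.BoundKey
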